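import Vale.Agent.P245.Final

/-!
Bizeul's logarithmic Sobolev conjecture for every log-concave measure whose density is
unconditional in some orthonormal basis, with a constant independent of the dimension.
-/

open MeasureTheory
open scoped ContDiff

namespace Vale.Agent.Results.P245.Unconditional

theorem result : ∃ C : ℝ, 0 < C ∧
    ∀ (n : ℕ) (ρ : EuclideanSpace ℝ (Fin n) → ℝ) (μ : Measure (EuclideanSpace ℝ (Fin n))),
      Measurable ρ → (∀ x, 0 ≤ ρ x) →
      μ = volume.withDensity (fun x => ENNReal.ofReal (ρ x)) → IsProbabilityMeasure μ →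
      Convex ℝ {x | 0 < ρ x} → ConcaveOn ℝ {x | 0 < ρ x} (fun x => Real.log (ρ x)) →
      (∃ b : OrthonormalBasis (Fin n) ℝ (EuclideanSpace ℝ (Fin n)),
        ∀ x y, (∀ i, |inner ℝ x (b i)| = |inner ℝ y (b i)|) → ρ x = ρ y) →
      ∀ a : ℝ, 0 < a →
      (∀ θ : EuclideanSpace ℝ (Fin n), ‖θ‖ = 1 →
        ∫⁻ x, ENNReal.ofReal (Real.exp (inner ℝ x θ ^ 2 / a ^ 2)) ∂μ ≤ 2) →
      ∀ f : EuclideanSpace ℝ (Fin n) → ℝ, ContDiff ℝ ∞ f → HasCompactSupport f →
        (∫ x, f x ^ 2 * Real.log (f x ^ 2) ∂μ) -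
            (∫ x, f x ^ 2 ∂μ) * Real.log (∫ x, f x ^ 2 ∂μ) ≤
          C * a ^ 2 * ∫ x, ‖gradient f x‖ ^ 2 ∂μ := by
  refine ⟨Vale.Agent.P245.K0, ?_, ?_⟩
  · have := Vale.Agent.P245.two_le_C2
    unfold Vale.Agent.P245.K0
    positivity
  rintro n ρ μ hm h0 rfl hp hc hl ⟨b, hb⟩ a ha hs f hf hfs
  set L := b.repr.symm with hL
  have hLm : MeasurePreserving L volume volume := L.measurePreserving
  have hLe : MeasurableEmbedding L := L.toHomeomorph.measurableEmbedding
  have h1 : ∫⁻ x, ENNReal.ofReal (ρ x) = 1 := by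
    have := hp.measure_univ
    rwa [withDensity_apply _ MeasurableSet.univ, Measure.restrict_univ] at this
  have hi : Integrable ρ :=
    ⟨hm.aestronglyMeasurable, (hasFiniteIntegral_iff_ofReal (ae_of_all _ h0)).2 (by simp [h1])⟩
  have h1' : ∫ x, ρ x = 1 := by
    rw [integral_eq_lintegral_of_nonneg_ae (ae_of_all _ h0) hm.aestronglyMeasurable, h1]
    simp
  have tr : ∀ g : EuclideanSpace ℝ (Fin n) → ℝ,
      ∫ x, g x ∂(volume.withDensity fun x => ENNReal.ofReal (ρ x)) = ∫ y, g (L y) * ρ (L y) := by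
    intro g
    rw [integral_withDensity_eq_integral_toReal_smul hm.ennreal_ofReal
      (ae_of_all _ fun _ => ENNReal.ofReal_lt_top), ← hLm.integral_comp hLe]
    simp only [ENNReal.toReal_ofReal (h0 _), smul_eq_mul, mul_comm]
  have hf1 : ContDiff ℝ 1 f := hf.of_le (by exact_mod_cast le_top)
  have key := Vale.Agent.P245.final n (fun y => ρ (L y)) (hm.comp L.continuous.measurable)
    (fun y => h0 _) (hLm.integrable_comp_of_integrable hi) ((hLm.integral_comp hLe ρ).trans h1')
    (hc.linear_preimage L.toLinearEquiv.toLinearMap)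
    (hl.comp_linearMap L.toLinearEquiv.toLinearMap)
    (fun x y h => hb _ _ fun i => by
      rw [real_inner_comm, real_inner_comm (b i), ← b.repr_apply_apply, ← b.repr_apply_apply]
      simpa [hL] using h i) a ha
    (fun θ hθ => by
      refine le_trans (le_of_eq (Eq.symm ?_)) (hs (L θ) (by rw [L.norm_map, hθ]))
      rw [lintegral_withDensity_eq_lintegral_mul _ hm.ennreal_ofReal (by fun_prop),
        ← hLm.lintegral_comp_emb hLe]
      refine lintegral_congr fun y => ?_
      rw [Pi.mul_apply, L.inner_map_map, ← ENNReal.ofReal_mul (h0 _), mul_comm])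
    (fun y => f (L y)) (hf1.comp L.contDiff) (hfs.comp_homeomorph L.toHomeomorph)
  have eg : ∀ y, ‖gradient (fun y => f (L y)) y‖ = ‖gradient f (L y)‖ := by
    intro y
    unfold gradient
    rw [LinearIsometryEquiv.norm_map, LinearIsometryEquiv.norm_map]
    have := L.toContinuousLinearEquiv.comp_right_fderiv (f := f) (x := y)
    erw [this]
    exact ContinuousLinearMap.opNorm_comp_linearIsometryEquiv _ L
  rw [tr, tr, tr]
  simpa only [eg] using key

end Vale.Agent.Results.P245.Unconditional
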