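import Vale.Agent.P245B.Main
import Vale.Agent.Results.P245.Unconditional

/-!
Three bounds for the logarithmic Sobolev constant of a log-concave, linearly subgaussian measure:
`C n^(1/3) a^2` for every centered measure, `C a / sqrt ε` for `ε`-strongly log-concave measures,
and `C a^2` for unconditional measures.
-/

open MeasureTheory
open scoped ContDiff

namespace Vale.Agent.Results.P245.CubeRoot

theorem result : ∃ C : ℝ, 0 < C ∧
    ∀ (n : ℕ) (ρ : EuclideanSpace ℝ (Fin n) → ℝ) (μ : Measure (EuclideanSpace ℝ (Fin n))),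
      1 ≤ n → Measurable ρ → (∀ x, 0 ≤ ρ x) →
      μ = volume.withDensity (fun x => ENNReal.ofReal (ρ x)) → IsProbabilityMeasure μ →
      Convex ℝ {x | 0 < ρ x} → ConcaveOn ℝ {x | 0 < ρ x} (fun x => Real.log (ρ x)) →
      ∀ a : ℝ, 0 < a →
      (∀ θ : EuclideanSpace ℝ (Fin n), ‖θ‖ = 1 →
        ∫⁻ x, ENNReal.ofReal (Real.exp (inner ℝ x θ ^ 2 / a ^ 2)) ∂μ ≤ 2) →
      ∀ f : EuclideanSpace ℝ (Fin n) → ℝ, ContDiff ℝ ∞ f → HasCompactSupport f →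
        (∫ x, x ∂μ = 0 →
          (∫ x, f x ^ 2 * Real.log (f x ^ 2) ∂μ) -
              (∫ x, f x ^ 2 ∂μ) * Real.log (∫ x, f x ^ 2 ∂μ) ≤
            C * (n : ℝ) ^ (1 / 3 : ℝ) * a ^ 2 * ∫ x, ‖gradient f x‖ ^ 2 ∂μ) ∧
        (∀ ε : ℝ, 0 < ε →
          ConcaveOn ℝ {x | 0 < ρ x} (fun x => Real.log (ρ x) + ε / 2 * ‖x‖ ^ 2) →
          (∫ x, f x ^ 2 * Real.log (f x ^ 2) ∂μ) -
              (∫ x, f x ^ 2 ∂μ) * Real.log (∫ x, f x ^ 2 ∂μ) ≤
            C * (a / Real.sqrt ε) * ∫ x, ‖gradient f x‖ ^ 2 ∂μ) ∧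
        ((∃ b : OrthonormalBasis (Fin n) ℝ (EuclideanSpace ℝ (Fin n)),
            ∀ x y, (∀ i, |inner ℝ x (b i)| = |inner ℝ y (b i)|) → ρ x = ρ y) →
          (∫ x, f x ^ 2 * Real.log (f x ^ 2) ∂μ) -
              (∫ x, f x ^ 2 ∂μ) * Real.log (∫ x, f x ^ 2 ∂μ) ≤
            C * a ^ 2 * ∫ x, ‖gradient f x‖ ^ 2 ∂μ) := by
  obtain ⟨C₀, hC₀, hU⟩ := Vale.Agent.Results.P245.Unconditional.result
  have hC := Vale.Agent.P245B.one_le_C1
  set C1 := Vale.Agent.P245B.C1 with hC1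
  have hC2 : C1 ≤ C1 ^ 2 := by nlinarith
  refine ⟨C₀ + 246000 * C1 ^ 2, by positivity, ?_⟩
  intro n ρ μ hn hm h0 hμ hp hc hl a ha hs f hf hfs
  have hT : Vale.Agent.P245B.Tst f :=
    Vale.Agent.P245B.Tst.of_supp (hf.of_le (WithTop.coe_le_coe.2 le_top)) hfs
  have hD : 0 ≤ ∫ x, ‖gradient f x‖ ^ 2 ∂μ := integral_nonneg fun _ => sq_nonneg _
  refine ⟨fun hz => ?_, fun ε hε hl' => ?_, fun hb => ?_⟩
  · have hn1 : (1 : ℝ) ≤ n := by exact_mod_cast hn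
    have hk : (1 : ℝ) ≤ (n : ℝ) ^ (1 / 3 : ℝ) := Real.one_le_rpow hn1 (by norm_num)
    have h1 := Vale.Agent.P245B.main_cube (ρ := ρ) ⟨hm, h0, hc, by simpa using hl⟩ hμ ha hs hz hk
      (by
        rw [← Real.rpow_natCast, ← Real.rpow_mul (by positivity)]
        simp) f hT
    refine h1.trans (mul_le_mul_of_nonneg_right ?_ hD)
    gcongr
    linarith
  · have h1 := Vale.Agent.P245B.main_strong (ρ := ρ) hε ⟨hm, h0, hc, hl'⟩ hμ ha hs f hT
    refine h1.trans (mul_le_mul_of_nonneg_right ?_ hD)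
    rw [mul_div_assoc]
    gcongr
    linarith
  · refine (hU n ρ μ hm h0 hμ hp hc hl hb a ha hs f hf hfs).trans
      (mul_le_mul_of_nonneg_right ?_ hD)
    gcongr
    nlinarith

end Vale.Agent.Results.P245.CubeRoot
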