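import Vale.Agent.P245C.Sup
import Vale.Agent.Results.P245.Unconditional

/-!
Three bounds for the logarithmic Sobolev constant of a log-concave, linearly subgaussian measure:
`C (1 + log n)^6 a^2` for every centered measure, `C a / sqrt ε` for `ε`-strongly log-concave measures,
and `C a^2` for unconditional measures.
-/

open MeasureTheory
open scoped ContDiff

namespace Vale.Agent.Results.P245.Polylog

theorem result : ∃ C : ℝ, 0 < C ∧
    ∀ (n : ℕ) (ρ : EuclideanSpace ℝ (Fin n) → ℝ) (μ : Measure (EuclideanSpace ℝ (Fin n))),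
      1 ≤ n → Measurable ρ → (∀ x, 0 ≤ ρ x) →
      μ = volume.withDensity (fun x => ENNReal.ofReal (ρ x)) → IsProbabilityMeasure μ →
      Convex ℝ {x | 0 < ρ x} → ConcaveOn ℝ {x | 0 < ρ x} (fun x => Real.log (ρ x)) →
      ∀ a : ℝ, 0 < a →
      (∀ θ : EuclideanSpace ℝ (Fin n), ‖θ‖ = 1 →
        ∫⁻ x, ENNReal.ofReal (Real.exp (inner ℝ x θ ^ 2 / a ^ 2)) ∂μ ≤ 2) →
      ∀ f : EuclideanSpace ℝ (Fin n) → ℝ, ContDiff ℝ ∞ f → HasCompactSupport f →
        (∫ x, x ∂μ = 0 →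
          (∫ x, f x ^ 2 * Real.log (f x ^ 2) ∂μ) -
              (∫ x, f x ^ 2 ∂μ) * Real.log (∫ x, f x ^ 2 ∂μ) ≤
            C * (1 + Real.log n) ^ 6 * a ^ 2 * ∫ x, ‖gradient f x‖ ^ 2 ∂μ) ∧
        (∀ ε : ℝ, 0 < ε →
          ConcaveOn ℝ {x | 0 < ρ x} (fun x => Real.log (ρ x) + ε / 2 * ‖x‖ ^ 2) →
          (∫ x, f x ^ 2 * Real.log (f x ^ 2) ∂μ) -
              (∫ x, f x ^ 2 ∂μ) * Real.log (∫ x, f x ^ 2 ∂μ) ≤
            C * (a / Real.sqrt ε) * ∫ x, ‖gradient f x‖ ^ 2 ∂μ) ∧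
        ((∃ b : OrthonormalBasis (Fin n) ℝ (EuclideanSpace ℝ (Fin n)),
            ∀ x y, (∀ i, |inner ℝ x (b i)| = |inner ℝ y (b i)|) → ρ x = ρ y) →
          (∫ x, f x ^ 2 * Real.log (f x ^ 2) ∂μ) -
              (∫ x, f x ^ 2 ∂μ) * Real.log (∫ x, f x ^ 2 ∂μ) ≤
            C * a ^ 2 * ∫ x, ‖gradient f x‖ ^ 2 ∂μ) := by
  obtain ⟨C₀, hC₀, hU⟩ := Vale.Agent.Results.P245.Unconditional.result
  have hC := Vale.Agent.P245B.one_le_C1
  set C1 := Vale.Agent.P245B.C1 with hC1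
  have he : 1 ≤ Real.exp 28 := Real.one_le_exp (by norm_num)
  have hC2 : C1 ≤ Real.exp 28 * C1 := by nlinarith
  refine ⟨C₀ + 3200 * 100 ^ 6 * (Real.exp 28 * C1), by positivity, ?_⟩
  intro n ρ μ hn hm h0 hμ hp hc hl a ha hs f hf hfs
  have hT : Vale.Agent.P245B.Tst f :=
    Vale.Agent.P245B.Tst.of_supp (hf.of_le (WithTop.coe_le_coe.2 le_top)) hfs
  have hD : 0 ≤ ∫ x, ‖gradient f x‖ ^ 2 ∂μ := integral_nonneg fun _ => sq_nonneg _
  refine ⟨fun hz => ?_, fun ε hε hl' => ?_, fun hb => ?_⟩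
  · have hn1 : (1 : ℝ) ≤ n := by exact_mod_cast hn
    have hl0 : 0 ≤ Real.log n := Real.log_nonneg hn1
    have h2 : (2 : ℝ) ^ Nat.log 2 n ≤ n := by
      exact_mod_cast Nat.pow_log_le_self 2 (by omega : n ≠ 0)
    have h3 : (n : ℝ) + 1 ≤ 2 ^ (Nat.log 2 n + 1) := by
      exact_mod_cast Nat.lt_pow_succ_log_self (by norm_num : 1 < 2) n
    have h4 : ((100 + Nat.log 2 n : ℕ) : ℝ) ≤ 100 * (1 + Real.log n) := by
      have h5 := Real.log_le_log (by positivity) h2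
      rw [Real.log_pow] at h5
      have h6 := Real.log_two_gt_d9
      have h7 : (0 : ℝ) ≤ Nat.log 2 n := Nat.cast_nonneg _
      push_cast
      nlinarith
    have h1 := Vale.Agent.P245B.main_poly (ρ := ρ) ⟨hm, h0, hc, by simpa using hl⟩ hμ ha hs hz
      (m := 100 + Nat.log 2 n) (by omega)
      (by
        have h5 : (2 : ℝ) ^ (Nat.log 2 n + 1 + 1) ≤ 2 ^ (100 + Nat.log 2 n) :=
          pow_le_pow_right₀ (by norm_num) (by omega)
        rw [pow_succ] at h5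
        rw [finrank_euclideanSpace_fin]
        linarith) f hT
    refine h1.trans (mul_le_mul_of_nonneg_right (mul_le_mul_of_nonneg_right ?_ (sq_nonneg a)) hD)
    have h8 := pow_le_pow_left₀ (Nat.cast_nonneg _) h4 6
    have h9 := mul_le_mul_of_nonneg_left h8 (by positivity : 0 ≤ 3200 * Real.exp 28 * C1)
    have h10 : 0 ≤ C₀ * (1 + Real.log n) ^ 6 := by positivity
    rw [mul_pow] at h9
    linarith
  · have h1 := Vale.Agent.P245B.main_strong (ρ := ρ) hε ⟨hm, h0, hc, hl'⟩ hμ ha hs f hT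
    refine h1.trans (mul_le_mul_of_nonneg_right ?_ hD)
    rw [mul_div_assoc]
    gcongr
    linarith
  · refine (hU n ρ μ hm h0 hμ hp hc hl hb a ha hs f hf hfs).trans
      (mul_le_mul_of_nonneg_right ?_ hD)
    gcongr
    nlinarith

end Vale.Agent.Results.P245.Polylog
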